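import Vale.Agent.P233.N2.H47.RS4

/-! P233, stage 3, part N2: copy of `H47/RS6`, with a density function `θ`. -/

set_option linter.all false

open MeasureTheory Filter Topology Set
open scoped ENNReal NNReal

universe u

namespace Vale.Agent.P233.N2.H47

open Vale.Agent.P233.H47 (Kf kk th kn Kf_pos kk_nonneg log_Kf kb kk_le kk_zero meas_Kf meas_kk
  meas_th meas_kn kn_nonneg int_kk kn_mass Lam meas_k lint_lam lam_fst lam_prob dens meas_dens
  lam_snd jensen ent_int law_pos law_log rt ent_lsc int_lam small_of Gj)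

section lim

variable {M : Type u} [MetricSpace M] [ProperSpace M] [MeasurableSpace M] [BorelSpace M]
  {A c : ℝ} {n : ℕ} {a : ℝ → ℝ} {b η K lam : ℝ} {m : Measure M}
  [SigmaFinite m] {γ : Measure (M × M)} [IsProbabilityMeasure γ]

/-- the data along the sequence `τ j → 0` for one side of the plan `γ` -/
structure Side (m : Measure M) (A : ℝ) (n : ℕ) (a : ℝ → ℝ) (b η : ℝ) (γ : Measure (M × M))
    (τ : ℕ → ℝ) (θ φ ψ : M → ℝ) (a1 : ℝ) : Prop where
  /-- the masses tend to `θ` uniformly -/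
  mass : ∀ ε > 0, ∀ᶠ j in atTop, ∀ᵐ z ∂γ, |th m A n a b η (τ j) z.1 - θ z.1| ≤ ε
  /-- the second moments tend to `θ n/2` uniformly -/
  mom : ∀ ε > 0, ∀ᶠ j in atTop, ∀ᵐ z ∂γ,
    |(τ j)⁻¹ * ∫ x, kk A n a b η (τ j) z.1 x * (dist z.1 x ^ 2 / 2) ∂m - θ z.1 * (n / 2)| ≤ ε
  /-- kernel inequality (Cheeger-Yau and Davies) -/
  s1 : ∀ᶠ T in 𝓝[>] (0 : ℝ), S1 m A n a b θ φ ψ T
  /-- drift -/
  s4 : ∀ ε > 0, ∀ᶠ j in atTop,
    ∫ z, ∫ x, kn m A n a b η (τ j) z.1 x * (dist x z.2 ^ 2 / 2 - φ x - ψ z.2) ∂m ∂γ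
      ≤ τ j * (a1 / 2 + ε)

/-- facts for one good `τ` -/
theorem good (hfin : ∀ (x : M) (r : ℝ), m (Metric.ball x r) < ∞) (hA : 0 < A) {τ : ℝ}
    (hτ : 0 < τ) (hc : 0 < c)
    (hθ : ∀ᵐ z ∂γ, c ≤ th m A n a b η τ z.1 ∧ th m A n a b η τ z.1 ≤ c⁻¹) :
    IsProbabilityMeasure (Lam m γ (kn m A n a b η τ)) ∧
    (Lam m γ (kn m A n a b η τ)).map Prod.fst = γ ∧
    ∀ᵐ z ∂(Lam m γ (kn m A n a b η τ)), dist z.1.1 z.2 < η := by
  have hkm : Measurable (Function.uncurry (kn (M := M) m A n a b η τ)) := meas_kn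
  have hk1 : ∀ᵐ z ∂γ, ∫⁻ x, ENNReal.ofReal (kn m A n a b η τ z.1 x) ∂m = 1 := by
    filter_upwards [hθ] with z hz
    exact kn_mass hfin hA hτ (by linarith [hz.1])
  refine ⟨lam_prob hkm hk1, lam_fst hkm hk1, ?_⟩
  have e3 : ∀ᵐ z ∂(Lam m γ (kn m A n a b η τ)), 0 < kn m A n a b η τ z.1.1 z.2 := by
    unfold Lam
    rw [ae_withDensity_iff (meas_k hkm)]
    exact Eventually.of_forall fun z hz => ENNReal.ofReal_pos.1 (pos_iff_ne_zero.2 hz)
  filter_upwards [e3] with z hz
  by_contra h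
  have : kn m A n a b η τ z.1.1 z.2 = 0 := by
    unfold kn; rw [kk_zero (not_lt.1 h), zero_div]
  exact hz.ne' this

theorem int_G (hfin : ∀ (x : M) (r : ℝ), m (Metric.ball x r) < ∞) (hA : 0 < A) {τ : ℝ}
    (hτ : 0 < τ) (hc : 0 < c)
    (hθ : ∀ᵐ z ∂γ, c ≤ th m A n a b η τ z.1 ∧ th m A n a b η τ z.1 ≤ c⁻¹) :
    Integrable (fun z : (M × M) × M => dist z.1.1 z.2 ^ 2 / 2)
      (Lam m γ (kn m A n a b η τ)) := by
  obtain ⟨h1, h2, h3⟩ := good hfin hA hτ hc hθ
  refine Integrable.of_bound (by fun_prop) (η ^ 2 / 2) ?_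
  filter_upwards [h3] with z hz
  rw [Real.norm_of_nonneg (by positivity)]
  have : 0 ≤ dist z.1.1 z.2 := dist_nonneg
  gcongr

/-- the masses are bounded from below and above -/
theorem th_bd {φ ψ θ : M → ℝ} {τ : ℕ → ℝ} {a1 : ℝ} (hS : Side m A n a b η γ τ θ φ ψ a1)
    (hc : 0 < c) (hθc : ∀ᵐ z ∂γ, 2 * c ≤ θ z.1 ∧ θ z.1 ≤ (2 * c)⁻¹) :
    ∀ᶠ j in atTop, ∀ᵐ z ∂γ, c ≤ th m A n a b η (τ j) z.1 ∧ th m A n a b η (τ j) z.1 ≤ c⁻¹ := by
  filter_upwards [hS.mass (min c (2 * c)⁻¹) (by positivity)] with j hj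
  filter_upwards [hj, hθc] with z hz hz2
  have h1 := abs_le.1 hz
  have h2 : min c (2 * c)⁻¹ ≤ c := min_le_left _ _
  have h3 : min c (2 * c)⁻¹ ≤ (2 * c)⁻¹ := min_le_right _ _
  have h4 : (2 * c)⁻¹ + (2 * c)⁻¹ = c⁻¹ := by field_simp; norm_num
  constructor <;> linarith [h1.1, h1.2, hz2.1, hz2.2]

theorem lim_G (hfin : ∀ (x : M) (r : ℝ), m (Metric.ball x r) < ∞) (hA : 0 < A)
    {φ ψ θ : M → ℝ} {τ : ℕ → ℝ} (hτ0 : ∀ j, 0 < τ j) {a1 : ℝ}
    (hS : Side m A n a b η γ τ θ φ ψ a1) (hc : 0 < c)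
    (hθc : ∀ᵐ z ∂γ, 2 * c ≤ θ z.1 ∧ θ z.1 ≤ (2 * c)⁻¹) :
    Tendsto (fun j => (τ j)⁻¹ * Gj m A n a b η γ (τ j)) atTop (𝓝 (n / 2)) := by
  rw [Metric.tendsto_atTop']
  intro ε hε
  set ε1 : ℝ := ε * c / (4 * (1 + n / 2)) with hε1
  have hn : (0 : ℝ) ≤ n := Nat.cast_nonneg n
  have hε10 : 0 < ε1 := by positivity
  have hε1b : ε1 * (4 * (1 + n / 2)) = ε * c := by
    rw [hε1]; field_simp
  obtain ⟨N, hN⟩ := eventually_atTop.1 (((hS.mass ε1 hε10).and (hS.mom ε1 hε10)).and
    (th_bd hS hc hθc))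
  refine ⟨N, fun j hj => ?_⟩
  obtain ⟨⟨h1, h2⟩, hθ⟩ := hN j hj.le
  have e1 : Gj m A n a b η γ (τ j) = ∫ z, ∫ x, kn m A n a b η (τ j) z.1 x
      * (dist z.1 x ^ 2 / 2) ∂m ∂γ :=
    int_lam meas_kn (kn_nonneg hA (hτ0 j)) (int_G hfin hA (hτ0 j) hc hθ)
  set q : M → ℝ := fun x' => (τ j)⁻¹ * ∫ x, kk A n a b η (τ j) x' x * (dist x' x ^ 2 / 2) ∂m
    with hq
  have hqm : Measurable q := by
    have h : Measurable fun z : M × M => kk A n a b η (τ j) z.1 z.2 * (dist z.1 z.2 ^ 2 / 2) :=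
      (meas_kk (M := M) (A := A) (n := n) (a := a) (b := b) (η := η) (s := τ j)).mul (by fun_prop)
    exact (h.stronglyMeasurable.integral_prod_right'.measurable).const_mul _
  have e2 : (τ j)⁻¹ * Gj m A n a b η γ (τ j)
      = ∫ z, (th m A n a b η (τ j) z.1)⁻¹ * q z.1 ∂γ := by
    rw [e1, ← integral_const_mul]
    congr 1
    ext z
    simp only [hq, kn]
    have : ∀ x, kk A n a b η (τ j) z.1 x / th m A n a b η (τ j) z.1 * (dist z.1 x ^ 2 / 2)
        = (th m A n a b η (τ j) z.1)⁻¹ * (kk A n a b η (τ j) z.1 x * (dist z.1 x ^ 2 / 2)) := by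
      intro x; ring
    simp_rw [this]
    rw [integral_const_mul]
    ring
  have hb : ∀ᵐ z ∂γ, ‖(th m A n a b η (τ j) z.1)⁻¹ * q z.1 - n / 2‖ ≤ ε / 2 := by
    filter_upwards [h1, h2, hθ] with z z1 z2 z3
    have hp : 0 < th m A n a b η (τ j) z.1 := by linarith [z3.1]
    have : (th m A n a b η (τ j) z.1)⁻¹ * q z.1 - n / 2
        = (th m A n a b η (τ j) z.1)⁻¹ * ((q z.1 - θ z.1 * (n / 2))
          - (th m A n a b η (τ j) z.1 - θ z.1) * (n / 2)) := by
      field_simp; ring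
    rw [this, norm_mul, Real.norm_of_nonneg (inv_nonneg.2 hp.le), Real.norm_eq_abs]
    have i1 : (th m A n a b η (τ j) z.1)⁻¹ ≤ c⁻¹ := inv_anti₀ hc z3.1
    have i2 : |(q z.1 - θ z.1 * (n / 2)) - (th m A n a b η (τ j) z.1 - θ z.1) * (n / 2)|
        ≤ ε1 + ε1 * (n / 2) := by
      refine (abs_sub _ _).trans (add_le_add z2 ?_)
      rw [abs_mul, abs_of_nonneg (by positivity : (0 : ℝ) ≤ (n : ℝ) / 2)]
      exact mul_le_mul_of_nonneg_right z1 (by positivity)
    calc (th m A n a b η (τ j) z.1)⁻¹ *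
          |(q z.1 - θ z.1 * (n / 2)) - (th m A n a b η (τ j) z.1 - θ z.1) * (n / 2)|
        ≤ c⁻¹ * (ε1 + ε1 * (n / 2)) := mul_le_mul i1 i2 (abs_nonneg _) (by positivity)
      _ = ε / 4 := by
          have : ε1 + ε1 * (n / 2) = ε * c / 4 := by linarith
          rw [this]; field_simp
      _ ≤ ε / 2 := by linarith
  have hi : Integrable (fun z : M × M => (th m A n a b η (τ j) z.1)⁻¹ * q z.1) γ := by
    refine Integrable.of_bound ?_ (ε / 2 + n / 2) ?_
    · exact ((meas_th.comp measurable_fst).inv.mul (hqm.comp measurable_fst)).aestronglyMeasurable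
    · filter_upwards [hb] with z hz
      have h3 := norm_sub_norm_le ((th m A n a b η (τ j) z.1)⁻¹ * q z.1) (n / 2 : ℝ)
      rw [Real.norm_of_nonneg (by positivity : (0 : ℝ) ≤ (n : ℝ) / 2)] at h3
      linarith
  rw [e2, Real.dist_eq]
  have e3 : ∫ z, (th m A n a b η (τ j) z.1)⁻¹ * q z.1 ∂γ - n / 2
      = ∫ z, ((th m A n a b η (τ j) z.1)⁻¹ * q z.1 - n / 2) ∂γ := by
    rw [integral_sub hi (integrable_const _)]; simp
  rw [e3, ← Real.norm_eq_abs]
  have := norm_integral_le_of_norm_le_const hb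
  simp only [probReal_univ, mul_one] at this
  linarith

/-- **one-sided inequality** (S2 + S3). -/
theorem oneside (hfin : ∀ (x : M) (r : ℝ), m (Metric.ball x r) < ∞) (hA : 0 < A) (hη : 0 < η)
    (ha : Tendsto (fun s => a s - 1 / s) (𝓝[>] 0) (𝓝 (-K / 6)))
    {p : M} {R : ℝ}
    {r s : M → ℝ} (hr : Measurable r) (hr0 : ∀ y, 0 ≤ r y) {C : ℝ} (hrC : ∀ y, r y ≤ C)
    (hrR : ∀ y, y ∉ Metric.ball p R → r y = 0)
    (hγ1 : γ.map Prod.fst = m.withDensity fun y => ENNReal.ofReal (r y))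
    (hs : Measurable s) (hs0 : ∀ y, 0 ≤ s y) (hsC : ∀ y, s y ≤ C)
    (hsR : ∀ y, y ∉ Metric.ball p R → s y = 0)
    (hγ2 : γ.map Prod.snd = m.withDensity fun y => ENNReal.ofReal (s y))
    {θ φ ψ : M → ℝ} (hθm : Measurable θ) (hθ0 : ∀ y, 0 < θ y) (hc : 0 < c)
    (hθc : ∀ y ∈ Metric.ball p R, 2 * c ≤ θ y ∧ θ y ≤ (2 * c)⁻¹)
    (hφ : Measurable φ) (hψ : Measurable ψ) {D : ℝ} (hφD : ∀ x, |φ x| ≤ D)
    (hψD : ∀ x, |ψ x| ≤ D) {τ : ℕ → ℝ} (hτ0 : ∀ j, 0 < τ j) (hτ : Tendsto τ atTop (𝓝 0))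
    {a1 : ℝ} (hS : Side m A n a b η γ τ θ φ ψ a1) (hlam : 0 < lam) :
    (1 / 2) * (∫ x, r x * Real.log (r x) ∂m - ∫ y, s y * Real.log (s y) ∂m)
      ≤ -((n : ℝ) / 2) * Real.log lam - n / 2 + lam * a1 / 2
        - K / 6 * ∫ z, dist z.1 z.2 ^ 2 / 2 ∂γ
        + (∫ z, Real.log (θ z.2) ∂γ - ∫ z, Real.log (θ z.1) ∂γ) := by
  have hball1 : ∀ᵐ z ∂γ, z.1 ∈ Metric.ball p R := by
    filter_upwards [law_pos measurable_fst hr hγ1] with z hz
    by_contra h
    exact hz.ne' (hrR _ h)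
  have hball2 : ∀ᵐ z ∂γ, z.2 ∈ Metric.ball p R := by
    filter_upwards [law_pos measurable_snd hs hγ2] with z hz
    by_contra h
    exact hz.ne' (hsR _ h)
  have hτ' : Tendsto τ atTop (𝓝[>] 0) :=
    tendsto_nhdsWithin_iff.2 ⟨hτ, Eventually.of_forall fun j => hτ0 j⟩
  have hθc1 : ∀ᵐ z ∂γ, 2 * c ≤ θ z.1 ∧ θ z.1 ≤ (2 * c)⁻¹ := by
    filter_upwards [hball1] with z hz using hθc _ hz
  have hθc2 : ∀ y ∈ Metric.ball p R, c ≤ θ y ∧ θ y ≤ c⁻¹ := fun y hy => by
    obtain ⟨h1, h2⟩ := hθc y hy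
    refine ⟨by linarith, h2.trans ?_⟩
    exact inv_anti₀ hc (by linarith)
  have hgood := th_bd (φ := φ) (ψ := ψ) hS hc hθc1
  -- (c1) - (c3)
  have c1 := lim_G hfin hA hτ0 hS hc hθc1
  have c3 : Tendsto (fun j => Gj m A n a b η γ (τ j)) atTop (𝓝 0) := by
    have h := hτ.mul c1
    rw [zero_mul] at h
    refine h.congr fun j => ?_
    have := (hτ0 j).ne'
    field_simp
  have ha' : Tendsto (fun j => a (τ j) - 1 / τ j) atTop (𝓝 (-K / 6)) := ha.comp hτ'
  have c2 : Tendsto (fun j => a (τ j) * Gj m A n a b η γ (τ j)) atTop (𝓝 (n / 2)) := by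
    have h := (ha'.mul c3).add c1
    rw [mul_zero, zero_add] at h
    refine h.congr fun j => ?_
    have := (hτ0 j).ne'
    field_simp
    ring
  -- (c4)
  have ilog : ∀ {f : M × M → M}, Measurable f → (∀ᵐ z ∂γ, f z ∈ Metric.ball p R) →
      Integrable (fun z => Real.log (θ (f z))) γ := by
    intro f hf hfb
    refine Integrable.of_bound (hθm.comp hf).log.aestronglyMeasurable (Real.log c⁻¹) ?_
    filter_upwards [hfb] with z hz
    obtain ⟨h1, h2⟩ := hθc2 _ hz
    rw [Real.norm_eq_abs, abs_le]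
    constructor
    · rw [Real.log_inv, neg_neg]
      exact Real.log_le_log hc h1
    · exact Real.log_le_log (by linarith) h2
  have c4 : Tendsto (fun j => ∫ z, Real.log (th m A n a b η (τ j) z.1.1)
      ∂(Lam m γ (kn m A n a b η (τ j)))) atTop (𝓝 (∫ z, Real.log (θ z.1) ∂γ)) := by
    rw [Metric.tendsto_atTop']
    intro ε hε
    obtain ⟨N, hN⟩ := eventually_atTop.1 ((hS.mass (ε * c / 2) (by positivity)).and hgood)
    refine ⟨N, fun j hj => ?_⟩
    obtain ⟨h1, hθ⟩ := hN j hj.le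
    obtain ⟨g1, g2, g3⟩ := good hfin hA (hτ0 j) hc hθ
    have mth : Measurable fun z : M × M => th m A n a b η (τ j) z.1 :=
      meas_th.comp measurable_fst
    have e1 : ∫ z, Real.log (th m A n a b η (τ j) z.1.1) ∂(Lam m γ (kn m A n a b η (τ j)))
        = ∫ z, Real.log (th m A n a b η (τ j) z.1) ∂γ := by
      conv_rhs => rw [← g2]
      rw [integral_map measurable_fst.aemeasurable mth.log.aestronglyMeasurable]
    have h2 : ∀ᵐ z ∂γ, ‖Real.log (th m A n a b η (τ j) z.1) - Real.log (θ z.1)‖ ≤ ε / 2 := by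
      filter_upwards [h1, hθ, hθc1] with z z1 z2 z3
      have z4 := abs_le.1 z1
      have hp : 0 < th m A n a b η (τ j) z.1 := by linarith [z2.1]
      have hq : 0 < θ z.1 := hθ0 _
      have hqc : c ≤ θ z.1 := by linarith [z3.1]
      rw [Real.norm_eq_abs, abs_le]
      constructor
      · have h5 := Real.log_le_sub_one_of_pos (div_pos hq hp)
        rw [Real.log_div hq.ne' hp.ne'] at h5
        have h6 : θ z.1 / th m A n a b η (τ j) z.1 - 1 ≤ ε / 2 := by
          rw [div_sub_one hp.ne', div_le_iff₀ hp]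
          nlinarith [z4.1, z2.1]
        linarith
      · have h5 := Real.log_le_sub_one_of_pos (div_pos hp hq)
        rw [Real.log_div hp.ne' hq.ne'] at h5
        have h6 : th m A n a b η (τ j) z.1 / θ z.1 - 1 ≤ ε / 2 := by
          rw [div_sub_one hq.ne', div_le_iff₀ hq]
          nlinarith [z4.2, z2.1]
        linarith
    have i1 : Integrable (fun z : M × M => Real.log (th m A n a b η (τ j) z.1)) γ := by
      refine Integrable.of_bound mth.log.aestronglyMeasurable (Real.log c⁻¹) ?_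
      filter_upwards [hθ] with z hz
      rw [Real.norm_eq_abs, abs_le]
      constructor
      · rw [Real.log_inv, neg_neg]
        exact Real.log_le_log hc hz.1
      · exact Real.log_le_log (by linarith [hz.1]) hz.2
    rw [e1, Real.dist_eq, ← integral_sub i1 (ilog measurable_fst hball1), ← Real.norm_eq_abs]
    have := norm_integral_le_of_norm_le_const h2
    simp only [probReal_univ, mul_one] at this
    linarith
  have c7 : ∀ᶠ j in atTop, ∫ z, Real.log (θ z.1.2) ∂(Lam m γ (kn m A n a b η (τ j)))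
      = ∫ z, Real.log (θ z.2) ∂γ := by
    filter_upwards [hgood] with j hθ
    obtain ⟨g1, g2, g3⟩ := good hfin hA (hτ0 j) hc hθ
    have mm : Measurable fun z : M × M => Real.log (θ z.2) := (hθm.comp measurable_snd).log
    conv_rhs => rw [← g2]
    rw [integral_map measurable_fst.aemeasurable mm.aestronglyMeasurable]
  -- a.e. bounds
  have hL : ∀ᶠ j in atTop, ∀ᵐ z ∂(Lam m γ (kn m A n a b η (τ j))),
      dist z.1.1 z.2 < η ∧ dist z.1.1 z.1.2 ≤ 2 * |R| ∧ dist z.2 z.1.2 ≤ 2 * |R| + η := by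
    filter_upwards [hgood] with j hθ
    obtain ⟨g1, g2, g3⟩ := good hfin hA (hτ0 j) hc hθ
    have : ∀ᵐ z ∂((Lam m γ (kn m A n a b η (τ j))).map Prod.fst),
        z.1 ∈ Metric.ball p R ∧ z.2 ∈ Metric.ball p R := by
      rw [g2]
      filter_upwards [hball1, hball2] with z z1 z2 using ⟨z1, z2⟩
    filter_upwards [g3, ae_of_ae_map measurable_fst.aemeasurable this] with z z1 z2
    have h1 := Metric.mem_ball.1 z2.1
    have h2 := Metric.mem_ball.1 z2.2
    have t1 := dist_triangle z.2 z.1.1 z.1.2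
    have t2 := dist_triangle z.1.1 p z.1.2
    rw [dist_comm z.2 z.1.1] at t1
    rw [dist_comm p z.1.2] at t2
    have := le_abs_self R
    exact ⟨z1, by linarith, by linarith⟩
  -- (c5)
  have c5 : Tendsto (fun j => ∫ z, dist z.2 z.1.2 ^ 2 / 2 ∂(Lam m γ (kn m A n a b η (τ j))))
      atTop (𝓝 (∫ z, dist z.1 z.2 ^ 2 / 2 ∂γ)) := by
    have h0 : Tendsto (fun j => ∫ z, dist z.2 z.1.2 ^ 2 / 2 ∂(Lam m γ (kn m A n a b η (τ j)))
        - ∫ z, dist z.1 z.2 ^ 2 / 2 ∂γ) atTop (𝓝 0) := by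
      refine small_of c3 fun ε hε => ?_
      set L : ℝ := 2 * |R| + η with hLd
      have hL0 : 0 < L := by have := abs_nonneg R; rw [hLd]; linarith
      set ε2 : ℝ := ε / L with hε2
      have hε20 : 0 < ε2 := by positivity
      refine ⟨L * (2 / ε2), ?_⟩
      filter_upwards [hgood, hL] with j hθ hLj
      obtain ⟨g1, g2, g3⟩ := good hfin hA (hτ0 j) hc hθ
      have i4 := int_G hfin hA (hτ0 j) hc hθ
      have i1 : Integrable (fun z : (M × M) × M => dist z.2 z.1.2 ^ 2 / 2)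
          (Lam m γ (kn m A n a b η (τ j))) := by
        refine Integrable.of_bound (by fun_prop) (L ^ 2 / 2) ?_
        filter_upwards [hLj] with z hz
        rw [Real.norm_of_nonneg (by positivity)]
        have : 0 ≤ dist z.2 z.1.2 := dist_nonneg
        have := hz.2.2
        gcongr
      have i2 : Integrable (fun z : (M × M) × M => dist z.1.1 z.1.2 ^ 2 / 2)
          (Lam m γ (kn m A n a b η (τ j))) := by
        refine Integrable.of_bound (by fun_prop) (L ^ 2 / 2) ?_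
        filter_upwards [hLj] with z hz
        rw [Real.norm_of_nonneg (by positivity)]
        have : 0 ≤ dist z.1.1 z.1.2 := dist_nonneg
        have h2 : dist z.1.1 z.1.2 ≤ L := by have := hz.2.1; rw [hLd]; linarith
        gcongr
      have e1 : ∫ z, dist z.1 z.2 ^ 2 / 2 ∂γ
          = ∫ z, dist z.1.1 z.1.2 ^ 2 / 2 ∂(Lam m γ (kn m A n a b η (τ j))) := by
        conv_lhs => rw [← g2]
        rw [integral_map measurable_fst.aemeasurable (by fun_prop)]
      rw [e1, ← integral_sub i1 i2]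
      have hb : ∀ᵐ z ∂(Lam m γ (kn m A n a b η (τ j))),
          ‖dist z.2 z.1.2 ^ 2 / 2 - dist z.1.1 z.1.2 ^ 2 / 2‖
            ≤ L * ε2 + L * (2 / ε2) * (dist z.1.1 z.2 ^ 2 / 2) := by
        filter_upwards [hLj] with z hz
        obtain ⟨z1, z2, z3⟩ := hz
        set d := dist z.1.1 z.2 with hd
        have d0 : 0 ≤ d := dist_nonneg
        have h1 : |dist z.2 z.1.2 - dist z.1.1 z.1.2| ≤ d := by
          rw [hd, dist_comm z.1.1 z.2]
          exact abs_dist_sub_le _ _ _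
        have h2 : |dist z.2 z.1.2 + dist z.1.1 z.1.2| ≤ 2 * L := by
          rw [abs_of_nonneg (by positivity)]
          rw [hLd]; linarith
        have h3 : dist z.2 z.1.2 ^ 2 / 2 - dist z.1.1 z.1.2 ^ 2 / 2
            = (dist z.2 z.1.2 - dist z.1.1 z.1.2) * (dist z.2 z.1.2 + dist z.1.1 z.1.2) / 2 := by
          ring
        rw [h3, norm_div, norm_mul, Real.norm_eq_abs, Real.norm_eq_abs, Real.norm_eq_abs,
          abs_two]
        have h4 : |dist z.2 z.1.2 - dist z.1.1 z.1.2| * |dist z.2 z.1.2 + dist z.1.1 z.1.2|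
            ≤ d * (2 * L) := mul_le_mul h1 h2 (abs_nonneg _) d0
        have h5 : d ≤ ε2 + d ^ 2 / ε2 := by
          rw [← sub_nonneg]
          have : ε2 + d ^ 2 / ε2 - d = ((ε2 - d / 2) ^ 2 + 3 / 4 * d ^ 2) / ε2 := by
            field_simp; ring
          rw [this]; positivity
        calc |dist z.2 z.1.2 - dist z.1.1 z.1.2| * |dist z.2 z.1.2 + dist z.1.1 z.1.2| / 2
            ≤ L * d := by linarith
          _ ≤ L * (ε2 + d ^ 2 / ε2) := by gcongr
          _ = L * ε2 + L * (2 / ε2) * (d ^ 2 / 2) := by ring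
      calc |∫ z, (dist z.2 z.1.2 ^ 2 / 2 - dist z.1.1 z.1.2 ^ 2 / 2)
            ∂(Lam m γ (kn m A n a b η (τ j)))|
          ≤ ∫ z, (L * ε2 + L * (2 / ε2) * (dist z.1.1 z.2 ^ 2 / 2))
            ∂(Lam m γ (kn m A n a b η (τ j))) := by
            rw [← Real.norm_eq_abs]
            exact norm_integral_le_of_norm_le ((integrable_const _).add (i4.const_mul _)) hb
        _ = ε + L * (2 / ε2) * Gj m A n a b η γ (τ j) := by
            rw [integral_add (integrable_const _) (i4.const_mul _),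
              integral_const_mul (L * (2 / ε2))]
            simp only [integral_const, probReal_univ, one_smul]
            have : L * ε2 = ε := by rw [hε2]; field_simp
            rw [this]
            rfl
    have h1 := h0.add_const (∫ z, dist z.1 z.2 ^ 2 / 2 ∂γ)
    simpa using h1
  -- (c6)
  have c6 : ∀ f : M → ℝ, Continuous f → HasCompactSupport f →
      Tendsto (fun j => ∫ x, rt m A n a b η γ (τ j) x * f x ∂m) atTop
        (𝓝 (∫ x, r x * f x ∂m)) := by
    intro f hf1 hf2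
    obtain ⟨B0, hB0⟩ := hf2.exists_bound_of_continuousOn hf1.continuousOn
    set B := |B0| with hB
    have hBf : ∀ x, |f x| ≤ B := by
      intro x
      by_cases h : x ∈ tsupport f
      · exact (hB0 x h).trans (le_abs_self B0)
      · rw [image_eq_zero_of_notMem_tsupport h, abs_zero]; exact abs_nonneg _
    have hunif := hf2.uniformContinuous_of_continuous hf1
    have h0 : Tendsto (fun j => ∫ x, rt m A n a b η γ (τ j) x * f x ∂m
        - ∫ x, r x * f x ∂m) atTop (𝓝 0) := by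
      refine small_of c3 fun ε hε => ?_
      obtain ⟨δ, hδ, hδf⟩ := Metric.uniformContinuous_iff.1 hunif ε hε
      refine ⟨4 * B / δ ^ 2, ?_⟩
      filter_upwards [hgood] with j hθ
      obtain ⟨g1, g2, g3⟩ := good hfin hA (hτ0 j) hc hθ
      obtain ⟨r1, r2, r3, r4, r5, r6⟩ := rt_facts (n := n) (a := a) (b := b) (η := η) hfin hA
        (hτ0 j) hball1 hc hθ
      have i4 := int_G hfin hA (hτ0 j) hc hθ
      have e1 : ∫ x, rt m A n a b η γ (τ j) x * f x ∂m
          = ∫ z, f z.2 ∂(Lam m γ (kn m A n a b η (τ j))) := by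
        have h1 : ∫ x, f x ∂((Lam m γ (kn m A n a b η (τ j))).map Prod.snd)
            = ∫ z, f z.2 ∂(Lam m γ (kn m A n a b η (τ j))) :=
          integral_map measurable_snd.aemeasurable hf1.aestronglyMeasurable
        rw [← h1, r5, integral_withDensity_eq_integral_toReal_smul r1.ennreal_ofReal
          (Eventually.of_forall fun x => ENNReal.ofReal_lt_top)]
        congr 1
        ext x
        rw [ENNReal.toReal_ofReal (r2 x), smul_eq_mul]
      have e2 : ∫ x, r x * f x ∂m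
          = ∫ z, f z.1.1 ∂(Lam m γ (kn m A n a b η (τ j))) := by
        have h1 : ∫ x, f x ∂(γ.map Prod.fst) = ∫ z, f z.1 ∂γ :=
          integral_map measurable_fst.aemeasurable hf1.aestronglyMeasurable
        have h2 : ∫ z, f z.1 ∂((Lam m γ (kn m A n a b η (τ j))).map Prod.fst)
            = ∫ z, f z.1.1 ∂(Lam m γ (kn m A n a b η (τ j))) :=
          integral_map measurable_fst.aemeasurable
            (hf1.measurable.comp measurable_fst).aestronglyMeasurable
        rw [← h2, g2, ← h1, hγ1, integral_withDensity_eq_integral_toReal_smul hr.ennreal_ofReal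
          (Eventually.of_forall fun x => ENNReal.ofReal_lt_top)]
        congr 1
        ext x
        rw [ENNReal.toReal_ofReal (hr0 x), smul_eq_mul]
      have i1 : Integrable (fun z : (M × M) × M => f z.2) (Lam m γ (kn m A n a b η (τ j))) :=
        Integrable.of_bound (hf1.measurable.comp measurable_snd).aestronglyMeasurable B
          (Eventually.of_forall fun z => hBf _)
      have i2 : Integrable (fun z : (M × M) × M => f z.1.1) (Lam m γ (kn m A n a b η (τ j))) :=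
        Integrable.of_bound (hf1.measurable.comp (by fun_prop)).aestronglyMeasurable B
          (Eventually.of_forall fun z => hBf _)
      rw [e1, e2, ← integral_sub i1 i2]
      have hb : ∀ z : (M × M) × M, ‖f z.2 - f z.1.1‖
          ≤ ε + 4 * B / δ ^ 2 * (dist z.1.1 z.2 ^ 2 / 2) := by
        intro z
        have hB' : 0 ≤ B := abs_nonneg _
        rcases lt_or_ge (dist z.2 z.1.1) δ with h | h
        · have h1 := hδf h
          rw [Real.dist_eq] at h1
          rw [Real.norm_eq_abs]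
          have : 0 ≤ 4 * B / δ ^ 2 * (dist z.1.1 z.2 ^ 2 / 2) := by positivity
          linarith
        · have h1 : ‖f z.2 - f z.1.1‖ ≤ B + B :=
            (norm_sub_le _ _).trans (add_le_add (hBf _) (hBf _))
          have h2 : 1 ≤ dist z.1.1 z.2 ^ 2 / δ ^ 2 := by
            rw [dist_comm] at h
            rw [one_le_div (by positivity)]
            gcongr
          have h3 : 4 * B / δ ^ 2 * (dist z.1.1 z.2 ^ 2 / 2)
              = 2 * B * (dist z.1.1 z.2 ^ 2 / δ ^ 2) := by ring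
          rw [h3]
          nlinarith
      calc |∫ z, (f z.2 - f z.1.1) ∂(Lam m γ (kn m A n a b η (τ j)))|
          ≤ ∫ z, (ε + 4 * B / δ ^ 2 * (dist z.1.1 z.2 ^ 2 / 2))
            ∂(Lam m γ (kn m A n a b η (τ j))) := by
            rw [← Real.norm_eq_abs]
            exact norm_integral_le_of_norm_le ((integrable_const _).add (i4.const_mul _))
              (Eventually.of_forall hb)
        _ = ε + 4 * B / δ ^ 2 * Gj m A n a b η γ (τ j) := by
            rw [integral_add (integrable_const _) (i4.const_mul _), integral_const_mul]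
            simp only [integral_const, probReal_univ, one_smul]
            rfl
    have h1 := h0.add_const (∫ x, r x * f x ∂m)
    simpa using h1
  -- the sequence of entropies
  have hrR' : ∀ x, x ∉ Metric.ball p (R + η) → r x = 0 := fun x hx => hrR x fun h =>
    hx (Metric.ball_subset_ball (by linarith) h)
  have hTj : Tendsto (fun j => τ j / lam) atTop (𝓝[>] 0) := by
    refine tendsto_nhdsWithin_iff.2 ⟨?_, Eventually.of_forall fun j => div_pos (hτ0 j) hlam⟩
    have := hτ.div_const lam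
    simpa using this
  set X : ℕ → ℝ := fun j => (a (τ j / lam) - (τ j / lam)⁻¹)
      * ∫ z, dist z.2 z.1.2 ^ 2 / 2 ∂(Lam m γ (kn m A n a b η (τ j)))
      + b * (τ j / lam) - b * τ j + (n : ℝ) / 2 * (-Real.log lam)
      - a (τ j) * Gj m A n a b η γ (τ j)
      - ∫ z, Real.log (th m A n a b η (τ j) z.1.1) ∂(Lam m γ (kn m A n a b η (τ j)))
      + ∫ z, Real.log (θ z.2) ∂γ with hX
  have hXlim : Tendsto X atTop (𝓝 ((-K / 6) * ∫ z, dist z.1 z.2 ^ 2 / 2 ∂γ + b * (0 / lam) - b * 0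
      + (n : ℝ) / 2 * (-Real.log lam) - n / 2 - ∫ z, Real.log (θ z.1) ∂γ
      + ∫ z, Real.log (θ z.2) ∂γ)) := by
    have ha2 : Tendsto (fun j => a (τ j / lam) - (τ j / lam)⁻¹) atTop (𝓝 (-K / 6)) := by
      have := ha.comp hTj
      refine this.congr fun j => ?_
      simp [Function.comp]
    exact ((((((ha2.mul c5).add ((hτ.div_const lam).const_mul b)).sub (hτ.const_mul b)).add_const
      _).sub c2).sub c4).add_const _
  refine le_of_forall_pos_le_add fun ε' hε' => ?_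
  set ε : ℝ := ε' / (1 / 2 + lam) with hε
  have hε0 : 0 < ε := by positivity
  have hev : ∀ᶠ j in atTop, (1 / 2) * (∫ x, r x * Real.log (r x) ∂m - ε
      - ∫ y, s y * Real.log (s y) ∂m) - lam * (a1 / 2 + ε) ≤ X j := by
    have hls := ent_lsc hfin hr hr0 hrC hrR' (r := fun j => rt m A n a b η γ (τ j)) (by
      filter_upwards [hgood] with j hθ
      obtain ⟨r1, r2, r3, r4, r5, r6⟩ := rt_facts (n := n) (a := a) (b := b) (η := η) hfin hA
        (hτ0 j) hball1 hc hθ
      exact ⟨r1, r2, ⟨_, r3⟩, r4⟩) c6 hε0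
    filter_upwards [hgood, hls, hTj.eventually hS.s1, hS.s4 ε hε0, hL, c7]
      with j hθ h1 h2 h3 hLj h7
    have hT : 0 < τ j / lam := div_pos (hτ0 j) hlam
    have hS2 := S2 (n := n) (a := a) (b := b) (η := η) hfin hA (hτ0 j) hT hball1 hc hθ hs hs0 hsC
      hsR hγ2 hθm hθ0 hθc2 hφ hψ hφD hψD h2
    rw [h7] at hS2
    obtain ⟨g1, g2, g3⟩ := good hfin hA (hτ0 j) hc hθ
    have hlog : Real.log (τ j / lam) - Real.log (τ j) = -Real.log lam := by
      rw [Real.log_div (hτ0 j).ne' hlam.ne']; ring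
    rw [hlog] at hS2
    have i1 : Integrable (fun z : (M × M) × M => dist z.2 z.1.2 ^ 2 / 2 - φ z.2 - ψ z.1.2)
        (Lam m γ (kn m A n a b η (τ j))) := by
      have i1 : Integrable (fun z : (M × M) × M => dist z.2 z.1.2 ^ 2 / 2)
          (Lam m γ (kn m A n a b η (τ j))) := by
        refine Integrable.of_bound (by fun_prop) ((2 * |R| + η) ^ 2 / 2) ?_
        filter_upwards [hLj] with z hz
        rw [Real.norm_of_nonneg (by positivity)]
        have : 0 ≤ dist z.2 z.1.2 := dist_nonneg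
        have := hz.2.2
        gcongr
      exact (i1.sub (Integrable.of_bound (hφ.comp measurable_snd).aestronglyMeasurable D
        (Eventually.of_forall fun z => hφD _))).sub (Integrable.of_bound
          (hψ.comp (by fun_prop)).aestronglyMeasurable D (Eventually.of_forall fun z => hψD _))
    have e1 : ∫ z, (dist z.2 z.1.2 ^ 2 / 2 - φ z.2 - ψ z.1.2) ∂(Lam m γ (kn m A n a b η (τ j)))
        ≤ τ j * (a1 / 2 + ε) := by
      rw [int_lam meas_kn (kn_nonneg hA (hτ0 j)) i1]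
      exact h3
    have e2 : (τ j / lam)⁻¹ * ∫ z, (dist z.2 z.1.2 ^ 2 / 2 - φ z.2 - ψ z.1.2)
        ∂(Lam m γ (kn m A n a b η (τ j))) ≤ lam * (a1 / 2 + ε) := by
      calc (τ j / lam)⁻¹ * ∫ z, (dist z.2 z.1.2 ^ 2 / 2 - φ z.2 - ψ z.1.2)
          ∂(Lam m γ (kn m A n a b η (τ j))) ≤ (τ j / lam)⁻¹ * (τ j * (a1 / 2 + ε)) := by
            apply mul_le_mul_of_nonneg_left e1 (inv_nonneg.2 hT.le)
        _ = lam * (a1 / 2 + ε) := by
            have := (hτ0 j).ne'
            field_simp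
    simp only [hX]
    unfold Gj
    linarith
  have hfinal := ge_of_tendsto hXlim hev
  have h5 : ε * (1 / 2 + lam) = ε' := by rw [hε]; field_simp
  have h6 : (0 : ℝ) / lam = 0 := zero_div _
  rw [h6] at hfinal
  nlinarith

end lim

end Vale.Agent.P233.N2.H47
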