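import Vale.Agent.P233.N2.H47.RS6
import Vale.Agent.P233.N2.RA.IfST
import Vale.Agent.P233.H47.RS9

/-! P233, stage 3, part N2: copy of `H47/RS8`, with a density function `θ`. -/

set_option linter.all false

open MeasureTheory Filter Topology Set
open scoped ENNReal NNReal

universe u

namespace Vale.Agent.P233.N2.H47

open Vale.Agent.P233.N2.RA
export Vale.Agent.P233.H47 (Kf kk th kn Kf_pos kk_nonneg meas_Kf meas_kk meas_th meas_kn kn_nonneg
  int_kk kn_mass aK_lim tau_pos tau_lim prob_of prob_plan dens_cond kk_eq th_eq sqrt_cls ae_cond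
  int_cond exists_eta meas_adm)

variable {M : Type u} [MetricSpace M] [ProperSpace M] [MeasurableSpace M] [BorelSpace M]
  {m : Measure M} {n : ℕ} {K δ : ℝ} {θ : M → ℝ}

theorem KH_th {c s : ℝ} (x y : M) : KH n K c s x y = c⁻¹ * KH n K 1 s x y := by
  unfold KH ga
  rw [mul_assoc c, mul_inv c, one_mul]
  ring

theorem KH_Kf {s : ℝ} (x y : M) : KH n K 1 s x y = Kf (ga n 1) n (aK K) (bK n K) s x y := rfl

theorem ga_pos1 (n : ℕ) : 0 < ga n 1 := by
  have h2 : 0 < Real.Gamma ((n : ℝ) / 2 + 1) := Real.Gamma_pos_of_pos (by positivity)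
  unfold ga
  positivity

theorem tht_th {c η s : ℝ} (x : M) : tht m n K c η s x = c⁻¹ * tht m n K 1 η s x := by
  unfold tht
  rw [← integral_const_mul]
  simp_rw [KH_th (c := c)]

theorem mom_th {c η s : ℝ} (x : M) : mom m n K c η s x = c⁻¹ * mom m n K 1 η s x := by
  unfold mom
  rw [← integral_const_mul]
  refine integral_congr_ae (Eventually.of_forall fun y => ?_)
  simp only
  rw [KH_th (c := c)]
  ring

theorem S1_of [SigmaFinite m] (hIn : InS m n K θ δ) {φ ψ : M → ℝ} (hadm : RA.Adm δ φ ψ) {T : ℝ}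
    (hT : 0 < T) (hT1 : T ≤ 1) : S1 m (ga n 1) n (aK K) (bK n K) θ φ ψ T := by
  intro F H hF hH hF0 hH0 hFC hHC hFs hHs hF1 hH1
  obtain ⟨f, f1, f2, f3, f4⟩ := sqrt_cls hF hF0 hF1
  obtain ⟨h, h1, h2, h3, h4⟩ := sqrt_cls hH hH0 hH1
  have hle : ∀ x y, φ x + ψ y ≤ dist x y ^ 2 / 2 := fun x y =>
    (hadm.le x y).trans (min_le_left _ _)
  have key := hIn.dav φ ψ hadm.bl1 hadm.bl2 hle T hT hT1 f h f1 h1 f2 h2 f3 h3
  have hφm : Measurable φ := by
    obtain ⟨⟨L, hL⟩, _⟩ := hadm.bl1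
    exact hL.continuous.measurable
  have hψm : Measurable ψ := by
    obtain ⟨⟨L, hL⟩, _⟩ := hadm.bl2
    exact hL.continuous.measurable
  have e1 : ∫⁻ x, ∫⁻ y, ENNReal.ofReal
        (Real.exp (φ x / T) * f x * KH n K (θ y) T x y * (Real.exp (ψ y / T) * h y)) ∂m ∂m
      = ∫⁻ x, ∫⁻ y, ENNReal.ofReal (Real.exp (φ x / T) * √(F x)
        * ((θ y)⁻¹ * Kf (ga n 1) n (aK K) (bK n K) T x y) * (Real.exp (ψ y / T) * √(H y))) ∂m ∂m := by
    refine lintegral_congr_ae ?_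
    filter_upwards [f4] with x hx
    refine lintegral_congr_ae ?_
    filter_upwards [h4] with y hy
    rw [hx, hy, KH_th (c := θ y), KH_Kf]
  rw [e1] at key
  rw [lintegral_lintegral_swap] at key
  · exact key
  · have hK : Measurable (Function.uncurry (Kf (M := M) (ga n 1) n (aK K) (bK n K) T)) := meas_Kf
    have a1 : Measurable fun q : M × M => Real.exp (φ q.1 / T) * √(F q.1) :=
      ((hφm.comp measurable_fst).div_const _).exp.mul (hF.comp measurable_fst).sqrt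
    have a2 : Measurable fun q : M × M => Real.exp (ψ q.2 / T) * √(H q.2) :=
      ((hψm.comp measurable_snd).div_const _).exp.mul (hH.comp measurable_snd).sqrt
    exact ((a1.mul ((hIn.hN.θ_meas.comp measurable_snd).inv.mul hK)).mul a2).ennreal_ofReal.aemeasurable

/-- second moments: from `a(τ) g` to `τ⁻¹ g` -/
theorem mom_of0 {E : Set M} (hE : Good m n K θ E) {η : ℝ} (hη : 0 < η) {ε : ℝ} (hε : 0 < ε) :
    ∀ᶠ j in atTop, ∀ x ∈ E, |(tau j)⁻¹ * ∫ y, kk (ga n (θ x)) n (aK K) (bK n K) η (tau j) x y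
      * (dist x y ^ 2 / 2) ∂m - n / 2| ≤ ε := by
  have hc : Tendsto (fun j => tau j * aK K (tau j)) atTop (𝓝 1) := by
    have h1 : Tendsto tau atTop (𝓝[>] 0) :=
      tendsto_nhdsWithin_iff.2 ⟨tau_lim, Eventually.of_forall fun j => tau_pos j⟩
    have h2 := (tau_lim.mul ((aK_lim (K := K)).comp h1)).add_const 1
    rw [zero_mul, zero_add] at h2
    refine h2.congr fun j => ?_
    have := (tau_pos j).ne'
    simp only [Function.comp]
    field_simp
    ring
  have hc2 : Tendsto (fun j => (tau j * aK K (tau j))⁻¹) atTop (𝓝 1) := by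
    have := hc.inv₀ one_ne_zero
    rwa [inv_one] at this
  have hc3 : Tendsto (fun j => (n : ℝ) / 2 * ((tau j * aK K (tau j))⁻¹ - 1)) atTop (𝓝 0) := by
    have := (hc2.sub_const 1).const_mul ((n : ℝ) / 2)
    rwa [sub_self, mul_zero] at this
  have v1 : ∀ᶠ j in atTop, |(n : ℝ) / 2 * ((tau j * aK K (tau j))⁻¹ - 1)| < ε / 2 := by
    have := hc3.abs
    rw [abs_zero] at this
    exact this.eventually_lt_const (by positivity)
  have v2 : ∀ᶠ j in atTop, (tau j * aK K (tau j))⁻¹ < 2 := hc2.eventually_lt_const (by norm_num)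
  have v3 : ∀ᶠ j in atTop, 0 < (tau j * aK K (tau j))⁻¹ := hc2.eventually_const_lt (by norm_num)
  filter_upwards [v1, v2, v3, hE.unif η hη (ε / 4) (by positivity)] with j h1 h2 h3 h4 x hx
  have hm := (h4 x hx).2
  have e1 : mom m n K (θ x) η (tau j) x = aK K (tau j)
      * ∫ y, kk (ga n (θ x)) n (aK K) (bK n K) η (tau j) x y * (dist x y ^ 2 / 2) ∂m := by
    unfold mom
    rw [← integral_const_mul, ← integral_indicator Metric.isOpen_ball.measurableSet]
    congr 1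
    ext y
    rw [kk_eq]
    by_cases hy : y ∈ Metric.ball x η
    · rw [indicator_of_mem hy, indicator_of_mem hy]
      unfold gg
      ring
    · rw [indicator_of_notMem hy, indicator_of_notMem hy]
      ring
  set J := ∫ y, kk (ga n (θ x)) n (aK K) (bK n K) η (tau j) x y * (dist x y ^ 2 / 2) ∂m with hJ
  have hτ := tau_pos j
  have ha0 : tau j * aK K (tau j) ≠ 0 := (inv_pos.1 h3).ne'
  have ha1 : aK K (tau j) ≠ 0 := right_ne_zero_of_mul ha0
  have e2 : (tau j)⁻¹ * J - n / 2 = (tau j * aK K (tau j))⁻¹ * (mom m n K (θ x) η (tau j) x - n / 2)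
      + (n : ℝ) / 2 * ((tau j * aK K (tau j))⁻¹ - 1) := by
    rw [e1]
    field_simp
    ring
  rw [e2]
  calc |(tau j * aK K (tau j))⁻¹ * (mom m n K (θ x) η (tau j) x - n / 2)
      + (n : ℝ) / 2 * ((tau j * aK K (tau j))⁻¹ - 1)|
      ≤ |(tau j * aK K (tau j))⁻¹ * (mom m n K (θ x) η (tau j) x - n / 2)|
        + |(n : ℝ) / 2 * ((tau j * aK K (tau j))⁻¹ - 1)| := abs_add_le _ _
    _ ≤ 2 * (ε / 4) + ε / 2 := by
        refine add_le_add ?_ h1.le
        rw [abs_mul, abs_of_pos h3]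
        exact mul_le_mul h2.le hm (abs_nonneg _) (by norm_num)
    _ = ε := by ring

theorem kk_th {c : ℝ} {s η : ℝ} (hc : 0 < c) (x y : M) :
    kk (ga n c) n (aK K) (bK n K) η s x y = c⁻¹ * kk (ga n 1) n (aK K) (bK n K) η s x y := by
  rw [kk_eq, kk_eq]
  by_cases hy : y ∈ Metric.ball x η
  · rw [indicator_of_mem hy, indicator_of_mem hy, KH_th (c := c)]
  · rw [indicator_of_notMem hy, indicator_of_notMem hy, mul_zero]

theorem exists_θ_le (hN : NSp m n K θ) {E : Set M} (hE : Bornology.IsBounded E) :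
    ∃ C : ℝ, 0 < C ∧ ∀ x ∈ E, θ x ≤ C := by
  rcases E.eq_empty_or_nonempty with h | ⟨x₀, _⟩
  · exact ⟨1, one_pos, fun x hx => by rw [h] at hx; exact hx.elim⟩
  · obtain ⟨R, hR⟩ := hE.subset_ball x₀
    obtain ⟨c, hc, h2⟩ := hN.θ_bd x₀ R
    exact ⟨c⁻¹, inv_pos.2 hc, fun x hx => (h2 x (hR hx)).2⟩

/-- masses -/
theorem mass_of (hN : NSp m n K θ) {E : Set M} (hE : Good m n K θ E) {η : ℝ} (hη : 0 < η) {ε : ℝ}
    (hε : 0 < ε) :
    ∀ᶠ j in atTop, ∀ x ∈ E, |th m (ga n 1) n (aK K) (bK n K) η (tau j) x - θ x| ≤ ε := by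
  obtain ⟨C, hC, hC2⟩ := exists_θ_le hN hE.bdd
  filter_upwards [hE.unif η hη (ε / C) (by positivity)] with j hj x hx
  have h1 := (hj x hx).1
  have h0 := hN.θ_pos x
  rw [tht_th (c := θ x)] at h1
  rw [th_eq]
  have e : tht m n K 1 η (tau j) x - θ x = θ x * ((θ x)⁻¹ * tht m n K 1 η (tau j) x - 1) := by
    field_simp
  rw [e, abs_mul, abs_of_pos h0]
  calc θ x * |(θ x)⁻¹ * tht m n K 1 η (tau j) x - 1| ≤ C * (ε / C) :=
        mul_le_mul (hC2 x hx) h1 (abs_nonneg _) hC.le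
    _ = ε := by field_simp

/-- second moments -/
theorem mom_of (hN : NSp m n K θ) {E : Set M} (hE : Good m n K θ E) {η : ℝ} (hη : 0 < η) {ε : ℝ}
    (hε : 0 < ε) :
    ∀ᶠ j in atTop, ∀ x ∈ E, |(tau j)⁻¹ * ∫ y, kk (ga n 1) n (aK K) (bK n K) η (tau j) x y
      * (dist x y ^ 2 / 2) ∂m - θ x * (n / 2)| ≤ ε := by
  obtain ⟨C, hC, hC2⟩ := exists_θ_le hN hE.bdd
  filter_upwards [mom_of0 hE hη (ε := ε / C) (by positivity)] with j hj x hx
  have h1 := hj x hx
  have h0 := hN.θ_pos x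
  have e : (tau j)⁻¹ * ∫ y, kk (ga n 1) n (aK K) (bK n K) η (tau j) x y * (dist x y ^ 2 / 2) ∂m
      = θ x * ((tau j)⁻¹ * ∫ y, kk (ga n (θ x)) n (aK K) (bK n K) η (tau j) x y
        * (dist x y ^ 2 / 2) ∂m) := by
    have e2 : ∫ y, kk (ga n (θ x)) n (aK K) (bK n K) η (tau j) x y * (dist x y ^ 2 / 2) ∂m
        = (θ x)⁻¹ * ∫ y, kk (ga n 1) n (aK K) (bK n K) η (tau j) x y * (dist x y ^ 2 / 2) ∂m := by
      rw [← integral_const_mul]
      refine integral_congr_ae (Eventually.of_forall fun y => ?_)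
      simp only
      rw [kk_th h0]
      ring
    rw [e2]
    field_simp
  rw [e, ← mul_sub, abs_mul, abs_of_pos h0]
  calc θ x * |(tau j)⁻¹ * ∫ y, kk (ga n (θ x)) n (aK K) (bK n K) η (tau j) x y
        * (dist x y ^ 2 / 2) ∂m - n / 2| ≤ C * (ε / C) :=
        mul_le_mul (hC2 x hx) h1 (abs_nonneg _) hC.le
    _ = ε := by field_simp

end Vale.Agent.P233.N2.H47
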